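import Mathlib

namespace Vale.Agent.P183

/-- An equivalence relation compatible with every operation of a finite list of operations. -/
def IsCong {A : Type} {n : ℕ} {ar : Fin n → ℕ} (op : ∀ i, (Fin (ar i) → A) → A)
    (θ : Setoid A) : Prop :=
  ∀ (i : Fin n) (x y : Fin (ar i) → A), (∀ j, θ (x j) (y j)) → θ (op i x) (op i y)

/-- `L` is order isomorphic to the whole congruence lattice of a finite nonempty algebra. -/
def Representable (L : Type) [LE L] : Prop :=
  ∃ (A : Type) (_ : Finite A) (_ : Nonempty A) (n : ℕ) (ar : Fin n → ℕ)
    (op : ∀ i, (Fin (ar i) → A) → A), Nonempty (L ≃o {θ : Setoid A // IsCong op θ})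

/-- Inflation of the subset `C` of `L`: one point over each element outside `C`,
the filter of `M` above `lam y` over each element `y` of `C`. -/
structure Infl {L M : Type} [LE M] [Bot M] (C : Set L) (lam : L → M) where
  base : L
  fib : M
  fib_ge : base ∈ C → lam base ≤ fib
  fib_bot : base ∉ C → fib = ⊥

instance inflLE {L M : Type} [LE L] [LE M] [Bot M] (C : Set L) (lam : L → M) : LE (Infl C lam) :=
  ⟨fun x y => x.base ≤ y.base ∧ (x.base ∈ C → y.base ∈ C → x.fib ≤ y.fib)⟩

/-- Lattices built from a one element lattice by finitely many doublings of convex sets. -/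
inductive Doubled : (K : Type) → Lattice K → Prop
  | one (K : Type) (iK : Lattice K) : Nonempty K → Subsingleton K → Doubled K iK
  | step (L : Type) (iL : Lattice L) (C : Set L) (K : Type) (iK : Lattice K) :
      Doubled L iL → C.OrdConnected → Nonempty (K ≃o Infl C (fun _ => false)) → Doubled K iK

end Vale.Agent.P183
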