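import Mathlib
import Vale.Agent.P183.Defs

namespace Vale.Agent.P183

def Pres {A B : Type} (f : A → B) (r : Setoid A) (s : Setoid B) : Prop :=
  ∀ x y, r x y → s (f x) (f y)

structure Rep (L : Type) [LE L] (A : Type) where
  θ : L → Setoid A
  le_iff : ∀ x y, θ x ≤ θ y ↔ x ≤ y
  closed : ∀ Θ : Setoid A, (∀ f : A → A, (∀ x, Pres f (θ x) (θ x)) → Pres f Θ Θ) → ∃ x, Θ = θ x

theorem chain {I A B : Type} [Finite I] [DecidableEq I] (r : Setoid A) (s : Setoid B)
    (F : (I → A) → B)
    (h : ∀ w k a b, r a b → s (F (Function.update w k a)) (F (Function.update w k b)))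
    (x y : I → A) (hxy : ∀ j, r (x j) (y j)) : s (F x) (F y) := by
  classical
  haveI := Fintype.ofFinite I
  have key : ∀ T : Finset I, s (F x) (F (T.piecewise y x)) := by
    intro T
    induction T using Finset.induction_on with
    | empty => simpa using s.refl' _
    | insert k T hk ih =>
      have h1 := h (T.piecewise y x) k (x k) (y k) (hxy k)
      have e1 : Function.update (T.piecewise y x) k (x k) = T.piecewise y x := by
        funext j
        by_cases hj : j = k
        · subst hj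
          simp [Finset.piecewise, hk]
        · simp [hj]
      rw [e1, ← Finset.piecewise_insert] at h1
      exact s.trans' ih h1
  simpa using key Finset.univ

theorem rep_of {L : Type} [LE L] (h : Representable L) :
    ∃ (A : Type), Finite A ∧ Nonempty A ∧ Nonempty (Rep L A) := by
  classical
  obtain ⟨A, hA, hne, n, ar, op, ⟨e⟩⟩ := h
  refine ⟨A, hA, hne, ⟨⟨fun x => (e x).1, fun x y => ?_, fun Θ hΘ => ?_⟩⟩⟩
  · exact e.map_rel_iff
  · have hc : IsCong op Θ := by
      intro i x y hxy
      refine chain Θ Θ (op i) (fun w k a b hab => ?_) x y hxy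
      refine hΘ (fun a => op i (Function.update w k a)) (fun z a' b' hab' => ?_) a b hab
      refine (e z).2 i _ _ (fun j => ?_)
      by_cases hj : j = k
      · subst hj
        simpa using hab'
      · simpa [hj] using (e z).1.refl' _
    exact ⟨e.symm ⟨Θ, hc⟩, by simp⟩

theorem of_rep {L A : Type} [LE L] [Finite A] [Nonempty A]
    (hanti : ∀ x y : L, x ≤ y → y ≤ x → x = y) (R : Rep L A) : Representable L := by
  classical
  obtain ⟨n, ⟨e⟩⟩ := Finite.exists_equiv_fin {f : A → A // ∀ x, Pres f (R.θ x) (R.θ x)}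
  refine ⟨A, inferInstance, inferInstance, n, fun _ => 1, fun i v => (e.symm i).1 (v 0), ⟨?_⟩⟩
  have hc : ∀ x, IsCong (ar := fun _ => 1) (fun i v => (e.symm i).1 (v 0)) (R.θ x) :=
    fun x i v w hvw => (e.symm i).2 x _ _ (hvw 0)
  refine ⟨Equiv.ofBijective (fun x => ⟨R.θ x, hc x⟩) ⟨fun x y hxy => ?_, fun Θ => ?_⟩, ?_⟩
  · have h1 : R.θ x = R.θ y := congrArg Subtype.val hxy
    exact hanti x y ((R.le_iff x y).1 h1.le) ((R.le_iff y x).1 h1.ge)
  · obtain ⟨x, hx⟩ := R.closed Θ.1 (fun f hf a b hab => by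
      have h2 := Θ.2 (e ⟨f, hf⟩) (fun _ => a) (fun _ => b) (fun _ => hab)
      simpa using h2)
    exact ⟨x, Subtype.ext hx.symm⟩
  · intro x y
    exact R.le_iff x y

theorem of_prerep {K X : Type} [LE K] [Finite X] [Nonempty X]
    (hanti : ∀ x y : K, x ≤ y → y ≤ x → x = y) (θ : K → Setoid X)
    (hle : ∀ x y, θ x ≤ θ y ↔ x ≤ y) (x0 : K) (h0 : ∀ x, x0 ≤ x)
    (hcl : ∀ Θ : Setoid X, θ x0 ≤ Θ → (∀ f : X → X, (∀ x, Pres f (θ x) (θ x)) → Pres f Θ Θ) →
      ∃ x, Θ = θ x) : Representable K := by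
  classical
  have hG : ∀ x, θ x0 ≤ θ x := fun x => (hle _ _).2 (h0 x)
  have hout : ∀ a : X, θ x0 (Quotient.mk (θ x0) a).out a := fun a => Quotient.mk_out a
  haveI : Nonempty (Quotient (θ x0)) := ⟨Quotient.mk _ (Classical.arbitrary X)⟩
  have hmk : ∀ x a b, Setoid.comap Quotient.out (θ x) (Quotient.mk (θ x0) a) (Quotient.mk (θ x0) b)
      ↔ θ x a b := by
    intro x a b
    rw [Setoid.comap_rel]
    constructor
    · intro h
      exact (θ x).trans' ((θ x).symm' (hG x (hout a))) ((θ x).trans' h (hG x (hout b)))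
    · intro h
      exact (θ x).trans' (hG x (hout a)) ((θ x).trans' h ((θ x).symm' (hG x (hout b))))
  refine of_rep (A := Quotient (θ x0)) hanti
    ⟨fun x => Setoid.comap Quotient.out (θ x), fun x y => ?_, fun Θ hΘ => ?_⟩
  · rw [← hle]
    constructor
    · intro h a b hab
      exact (hmk y a b).1 (h ((hmk x a b).2 hab))
    · intro h a b hab
      exact h hab
  · obtain ⟨x, hx⟩ := hcl (Setoid.comap (Quotient.mk (θ x0)) Θ) (fun a b hab => by
      have h1 : Quotient.mk (θ x0) a = Quotient.mk (θ x0) b := Quotient.sound hab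
      rw [Setoid.comap_rel, h1]) (fun f hf a b hab => by
      have h2 := hΘ (fun q => Quotient.mk (θ x0) (f q.out))
        (fun x p q hpq => (hmk x _ _).2 (hf x _ _ hpq)) _ _ hab
      have h3 : ∀ a, Quotient.mk (θ x0) (f (Quotient.mk (θ x0) a).out) = Quotient.mk (θ x0) (f a) :=
        fun a => Quotient.sound (hf x0 _ _ (hout a))
      simp only [h3] at h2
      exact h2)
    refine ⟨x, Setoid.ext fun p q => ?_⟩
    have h4 : θ x p.out q.out ↔ Θ (Quotient.mk (θ x0) p.out) (Quotient.mk (θ x0) q.out) := by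
      rw [← hx]
      exact Iff.rfl
    rw [Quotient.out_eq, Quotient.out_eq] at h4
    exact h4.symm

theorem Rep.finite {L A : Type} [PartialOrder L] [Finite A] (R : Rep L A) : Finite L := by
  refine Finite.of_injective (fun x : L => (R.θ x).r) (fun x y hxy => ?_)
  have h1 : R.θ x = R.θ y := Setoid.ext fun a b => by
    have h2 : (R.θ x).r a b = (R.θ y).r a b := congrFun (congrFun hxy a) b
    exact h2.to_iff
  exact le_antisymm ((R.le_iff x y).1 h1.le) ((R.le_iff y x).1 h1.ge)

theorem Rep.exists_bot {L A : Type} [LE L] (R : Rep L A) : ∃ y0 : L, ∀ y, y0 ≤ y := by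
  obtain ⟨y0, h⟩ := R.closed ⊥ (fun f _ a b hab => by
    have h1 : a = b := hab
    subst h1
    exact (⊥ : Setoid A).refl' _)
  exact ⟨y0, fun y => (R.le_iff _ _).1 (h ▸ bot_le)⟩

theorem Representable.iso {L K : Type} [LE L] [LE K] (e : K ≃o L) (h : Representable L) :
    Representable K := by
  obtain ⟨A, hA, hne, n, ar, op, ⟨f⟩⟩ := h
  exact ⟨A, hA, hne, n, ar, op, ⟨e.trans f⟩⟩

theorem rep_one (K : Type) [PartialOrder K] [Nonempty K] [Subsingleton K] : Representable K := by
  refine of_rep (A := Unit) (fun x y _ _ => Subsingleton.elim x y)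
    ⟨fun _ => ⊤, fun x y => ?_, fun Θ _ => ⟨Classical.arbitrary K, ?_⟩⟩
  · exact ⟨fun _ => (Subsingleton.elim x y).le, fun _ => le_rfl⟩
  · exact Setoid.ext fun a b => ⟨fun _ => trivial, fun _ => Θ.refl' _⟩

theorem rep_bool : Representable Bool := by
  refine of_rep (A := Bool) (fun x y => le_antisymm)
    ⟨fun x => if x = true then ⊤ else ⊥, fun x y => ?_, fun Θ _ => ?_⟩
  · have hne : ¬ ((⊤ : Setoid Bool) ≤ ⊥) := fun h => by
      have h1 : (⊥ : Setoid Bool) true false := h trivial
      exact Bool.noConfusion (show true = false from h1)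
    cases x <;> cases y <;> simp [hne]
  · by_cases h : Θ true false
    · refine ⟨true, Setoid.ext fun a b => ⟨fun _ => trivial, fun _ => ?_⟩⟩
      cases a <;> cases b
      exacts [Θ.refl' _, Θ.symm' h, h, Θ.refl' _]
    · refine ⟨false, Setoid.ext fun a b => ⟨fun hab => ?_, fun hab => ?_⟩⟩
      · cases a <;> cases b
        exacts [rfl, absurd (Θ.symm' hab) h, absurd hab h, rfl]
      · have h1 : a = b := hab
        subst h1
        exact Θ.refl' _

end Vale.Agent.P183
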