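import Mathlib
import Vale.Agent.P183.Basic

namespace Vale.Agent.P183

open Classical

structure Edge {L M B : Type} [LE L] [LE M] (C : Set L) (S : Rep M B) (lam : L → M) where
  src : C × B
  tgt : C × B
  lab : L
  h1 : src.1.1 ≤ lab
  h2 : tgt.1.1 ≤ lab
  h3 : lab ∈ C → S.θ (lam lab) src.2 tgt.2

instance edgeFinite {L M B : Type} [LE L] [LE M] [Finite L] [Finite B] (C : Set L) (S : Rep M B)
    (lam : L → M) : Finite (Edge C S lam) :=
  Finite.of_injective (fun e : Edge C S lam => (e.src, e.tgt, e.lab)) (fun e e' h => by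
    cases e
    cases e'
    simp only [Prod.mk.injEq] at h
    obtain ⟨h1, h2, h3⟩ := h
    subst h1 h2 h3
    rfl)

abbrev XX {L M B : Type} [LE L] [LE M] (C : Set L) (S : Rep M B) (lam : L → M) (A : Type) : Type :=
  (C × B) ⊕ (Edge C S lam × Fin 3 × (A × A → A))

def cc {A : Type} : A × A → A := fun k => k.1

variable {L M A B : Type} [PartialOrder L] [PartialOrder M] [OrderBot M] {C : Set L}
  {lam : L → M}

noncomputable def dd (R : Rep L A) (l : L) : A × A → A :=
  fun k => if R.θ l k.1 k.2 then k.2 else k.1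

theorem dd_of (R : Rep L A) {l : L} {s t : A} (h : R.θ l s t) : dd R l (s, t) = t := by
  simp [dd, h]

theorem cc_dd (R : Rep L A) (l : L) (k : A × A) : R.θ l (cc k) (dd R l k) := by
  unfold cc dd
  split_ifs with h
  · exact h
  · exact (R.θ l).refl' _

theorem Rep.mono {L A : Type} [LE L] (R : Rep L A) {x y : L} (h : x ≤ y) {a b : A}
    (hab : R.θ x a b) : R.θ y a b := (R.le_iff x y).2 h hab

inductive Gen (R : Rep L A) (S : Rep M B) (x : Infl C lam) : XX C S lam A → XX C S lam A → Prop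
  | copy (e : Edge C S lam) (i : Fin 3) (w w' : A × A → A) :
      (∀ k, R.θ x.base (w k) (w' k)) → Gen R S x (Sum.inr (e, i, w)) (Sum.inr (e, i, w'))
  | g0 (e : Edge C S lam) : Gen R S x (Sum.inl e.src) (Sum.inr (e, 0, cc))
  | g1 (e : Edge C S lam) : Gen R S x (Sum.inr (e, 0, dd R e.lab)) (Sum.inr (e, 1, cc))
  | g2 (e : Edge C S lam) : Gen R S x (Sum.inr (e, 1, dd R e.lab)) (Sum.inr (e, 2, cc))
  | g3 (e : Edge C S lam) : Gen R S x (Sum.inr (e, 2, dd R e.lab)) (Sum.inl e.tgt)
  | hub (a : C) (b b' : B) : a.1 ≤ x.base → (x.base ∈ C → S.θ x.fib b b') →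
      Gen R S x (Sum.inl (a, b)) (Sum.inl (a, b'))

def TT (R : Rep L A) (S : Rep M B) (x : Infl C lam) : Setoid (XX C S lam A) :=
  Relation.EqvGen.setoid (Gen R S x)

variable (R : Rep L A) (S : Rep M B)

theorem TT.of {x : Infl C lam} {p q : XX C S lam A} (h : Gen R S x p q) : TT R S x p q :=
  Relation.EqvGen.rel _ _ h

theorem pres_of_gen {Y : Type} (x : Infl C lam) (f : XX C S lam A → Y) (s : Setoid Y)
    (h : ∀ p q, Gen R S x p q → s (f p) (f q)) : Pres f (TT R S x) s := by
  intro p q hpq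
  have h1 : Relation.EqvGen (Gen R S x) p q := hpq
  induction h1 with
  | rel a b hab => exact h a b hab
  | refl a => exact s.refl' _
  | symm a b hab ih => exact s.symm' (ih hab)
  | trans a b c hab hbc ih1 ih2 => exact s.trans' (ih1 hab) (ih2 hbc)

/-- maps from the power to the base algebra that respect all congruences -/
def NE (φ : (A × A → A) → A) : Prop :=
  ∀ y w w', (∀ k, R.θ y (w k) (w' k)) → R.θ y (φ w) (φ w')

theorem NE.proj (k : A × A) : NE R (fun w => w k) := fun _ _ _ h => h k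

theorem NE.const (s : A) : NE R (fun _ => s) := fun y _ _ _ => (R.θ y).refl' _

/-- test maps -/
def IsTest (F : XX C S lam A → A) : Prop := ∀ x : Infl C lam, Pres F (TT R S x) (R.θ x.base)

theorem test_pres (o : C × B → A) (φ : Edge C S lam → Fin 3 → (A × A → A) → A)
    (hφ : ∀ e i, NE R (φ e i)) (h0 : ∀ e, φ e 0 cc = o e.src)
    (h1 : ∀ e, φ e 0 (dd R e.lab) = φ e 1 cc) (h2 : ∀ e, φ e 1 (dd R e.lab) = φ e 2 cc)
    (h3 : ∀ e, φ e 2 (dd R e.lab) = o e.tgt)
    (hh : ∀ a b b', R.θ a.1 (o (a, b)) (o (a, b'))) :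
    IsTest R S (Sum.elim o (fun p => φ p.1 p.2.1 p.2.2) : XX C S lam A → A) := by
  intro x
  refine pres_of_gen R S x _ _ (fun p q h => ?_)
  cases h with
  | copy e i w w' h => exact hφ e i _ w w' h
  | g0 e =>
    show R.θ x.base (o e.src) (φ e 0 cc)
    rw [h0]
  | g1 e =>
    show R.θ x.base (φ e 0 (dd R e.lab)) (φ e 1 cc)
    rw [h1]
  | g2 e =>
    show R.θ x.base (φ e 1 (dd R e.lab)) (φ e 2 cc)
    rw [h2]
  | g3 e =>
    show R.θ x.base (φ e 2 (dd R e.lab)) (o e.tgt)
    rw [h3]
  | hub a b b' ha _ => exact R.mono ha (hh a b b')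

variable {S} in
noncomputable def foldMap (e0 : Edge C S lam) (o : A) (ψ : Fin 3 → (A × A → A) → A) : XX C S lam A → A :=
  Sum.elim (fun _ => o) (fun p => if p.1 = e0 then ψ p.2.1 p.2.2 else o)

theorem fold_pres (e0 : Edge C S lam) (o : A) (ψ : Fin 3 → (A × A → A) → A)
    (hψ : ∀ i, NE R (ψ i)) (h0 : ψ 0 cc = o) (h1 : ψ 0 (dd R e0.lab) = ψ 1 cc)
    (h2 : ψ 1 (dd R e0.lab) = ψ 2 cc) (h3 : ψ 2 (dd R e0.lab) = o) :
    IsTest R S (foldMap e0 o ψ) := by
  refine test_pres R S (fun _ => o) (fun e i w => if e = e0 then ψ i w else o)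
    (fun e i => ?_) (fun e => ?_) (fun e => ?_) (fun e => ?_) (fun e => ?_)
    (fun a _ _ => (R.θ a.1).refl' _)
  all_goals by_cases h : e = e0
  · simpa [h] using hψ i
  · simpa [h] using NE.const R o
  · simp [h, h0]
  · simp [h]
  · simp [h, h1]
  · simp [h]
  · simp [h, h2]
  · simp [h]
  · simp [h, h3]
  · simp [h]

/-- folding copy `i` of a cell with copy `j` -/
theorem fold_exists (e0 : Edge C S lam) (i j : Fin 3) (hij : i ≠ j) :
    ∃ β : XX C S lam A → Prop, ∀ k : A × A, ∃ F : XX C S lam A → A, IsTest R S F ∧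
      (∀ w, F (Sum.inr (e0, i, w)) = w k) ∧
      ∀ q, (∀ w, q ≠ Sum.inr (e0, i, w)) → (∀ w, q ≠ Sum.inr (e0, j, w)) →
        F q = if β q then dd R e0.lab k else cc k := by
  have key : ∀ (bo bv : Prop) (m : Fin 3), (∀ m', m' ≠ i → m' ≠ j → m' = m) →
      (∀ k : A × A, IsTest R S (foldMap e0 (if bo then dd R e0.lab k else cc k)
        (fun n w => if n = i then w k else if n = j then w (dd R e0.lab k, cc k)
          else if bv then dd R e0.lab k else cc k))) →
      ∃ β : XX C S lam A → Prop, ∀ k : A × A, ∃ F : XX C S lam A → A, IsTest R S F ∧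
      (∀ w, F (Sum.inr (e0, i, w)) = w k) ∧
      ∀ q, (∀ w, q ≠ Sum.inr (e0, i, w)) → (∀ w, q ≠ Sum.inr (e0, j, w)) →
        F q = if β q then dd R e0.lab k else cc k := by
    intro bo bv m hm hT
    refine ⟨Sum.elim (fun _ => bo) (fun p => if p.1 = e0 then bv else bo), fun k =>
      ⟨_, hT k, fun w => by simp [foldMap], fun q hq hq' => ?_⟩⟩
    rcases q with h | ⟨e, n, w⟩
    · by_cases hb : bo <;> simp [foldMap, hb]
    · by_cases he : e = e0
      · subst he
        have h1 : n ≠ i := fun h => hq w (by rw [h])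
        have h2 : n ≠ j := fun h => hq' w (by rw [h])
        simp [foldMap, h1, h2]
      · simp [foldMap, he]
  have hne : ∀ (bv : Prop) (k : A × A) (n : Fin 3), NE R (fun w => if n = i then w k
      else if n = j then w (dd R e0.lab k, cc k) else if bv then dd R e0.lab k else cc k) := by
    intro bv k n
    by_cases h1 : n = i
    · simpa [h1] using NE.proj R k
    · by_cases h2 : n = j
      · simpa [h1, h2, hij.symm] using NE.proj R (dd R e0.lab k, cc k)
      · simpa [h1, h2] using NE.const R _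
  have hd : ∀ k : A × A, dd R e0.lab (dd R e0.lab k, cc k) = cc k :=
    fun k => dd_of R ((R.θ e0.lab).symm' (cc_dd R e0.lab k))
  have hc : ∀ k : A × A, cc (dd R e0.lab k, cc k) = dd R e0.lab k := fun _ => rfl
  fin_cases i <;> fin_cases j
  · exact absurd rfl hij
  · exact key False False 2 (by decide)
      (fun k => fold_pres R S e0 _ _ (hne _ k) (by simp) (by simp [hc]) (by simp [hd]) (by simp))
  · exact key False True 1 (by decide)
      (fun k => fold_pres R S e0 _ _ (hne _ k) (by simp) (by simp) (by simp [hc]) (by simp [hd]))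
  · exact key True True 2 (by decide)
      (fun k => fold_pres R S e0 _ _ (hne _ k) (by simp [hc]) (by simp [hd]) (by simp) (by simp))
  · exact absurd rfl hij
  · exact key False False 0 (by decide)
      (fun k => fold_pres R S e0 _ _ (hne _ k) (by simp) (by simp) (by simp [hc]) (by simp [hd]))
  · exact key True False 1 (by decide)
      (fun k => fold_pres R S e0 _ _ (hne _ k) (by simp [hc]) (by simp [hd]) (by simp) (by simp))
  · exact key True True 0 (by decide)
      (fun k => fold_pres R S e0 _ _ (hne _ k) (by simp) (by simp [hc]) (by simp [hd]) (by simp))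
  · exact absurd rfl hij

end Vale.Agent.P183
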