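import Mathlib
import Vale.Agent.P183.Cell

namespace Vale.Agent.P183.G

open Classical

/-- hub systems -/
structure Sys (L K H : Type) [LE L] [LE K] where
  base : K → L
  sg : L → K
  adj : ∀ y x, sg y ≤ x ↔ y ≤ base x
  η : K → Setoid H
  mono : ∀ x x', x ≤ x' → η x ≤ η x'
  lv : H → L
  lv_le : ∀ x h h', η x h h' → h' ≠ h → lv h ≤ base x
  base_sg : ∀ y, base (sg y) = y
  refl : ∀ x x', base x ≤ base x' → η x ≤ η x' → x ≤ x'
  closed : ∀ y (Θ : Setoid H), η (sg y) ≤ Θ → (∀ h h', Θ h h' → h' ≠ h → lv h ≤ y) →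
    ∃ x, base x = y ∧ Θ = η x

structure Edge {L K H : Type} [LE L] [LE K] (S : Sys L K H) where
  src : H
  tgt : H
  lab : L
  h3 : S.η (S.sg lab) src tgt

instance edgeFinite {L K H : Type} [LE L] [LE K] [Finite L] [Finite H] (S : Sys L K H) :
    Finite (Edge S) :=
  Finite.of_injective (fun e : Edge S => (e.src, e.tgt, e.lab)) (fun e e' h => by
    cases e
    cases e'
    simp only [Prod.mk.injEq] at h
    obtain ⟨h1, h2, h3⟩ := h
    subst h1 h2 h3
    rfl)

abbrev XX {L K H : Type} [LE L] [LE K] (S : Sys L K H) (A : Type) : Type :=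
  H ⊕ (Edge S × Fin 3 × (A × A → A))

variable {L K A H : Type} [PartialOrder L] [PartialOrder K]

inductive Gen (R : Rep L A) (S : Sys L K H) (x : K) : XX S A → XX S A → Prop
  | copy (e : Edge S) (i : Fin 3) (w w' : A × A → A) :
      (∀ k, R.θ (S.base x) (w k) (w' k)) → Gen R S x (Sum.inr (e, i, w)) (Sum.inr (e, i, w'))
  | g0 (e : Edge S) : Gen R S x (Sum.inl e.src) (Sum.inr (e, 0, cc))
  | g1 (e : Edge S) : Gen R S x (Sum.inr (e, 0, dd R e.lab)) (Sum.inr (e, 1, cc))
  | g2 (e : Edge S) : Gen R S x (Sum.inr (e, 1, dd R e.lab)) (Sum.inr (e, 2, cc))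
  | g3 (e : Edge S) : Gen R S x (Sum.inr (e, 2, dd R e.lab)) (Sum.inl e.tgt)
  | hub (h h' : H) : S.η x h h' → Gen R S x (Sum.inl h) (Sum.inl h')

def TT (R : Rep L A) (S : Sys L K H) (x : K) : Setoid (XX S A) :=
  Relation.EqvGen.setoid (Gen R S x)

variable (R : Rep L A) (S : Sys L K H)

theorem TT.of {x : K} {p q : XX S A} (h : Gen R S x p q) : TT R S x p q :=
  Relation.EqvGen.rel _ _ h

theorem pres_of_gen {Y : Type} (x : K) (f : XX S A → Y) (s : Setoid Y)
    (h : ∀ p q, Gen R S x p q → s (f p) (f q)) : Pres f (TT R S x) s := by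
  intro p q hpq
  have h1 : Relation.EqvGen (Gen R S x) p q := hpq
  induction h1 with
  | rel a b hab => exact h a b hab
  | refl a => exact s.refl' _
  | symm a b hab ih => exact s.symm' (ih hab)
  | trans a b c hab hbc ih1 ih2 => exact s.trans' (ih1 hab) (ih2 hbc)

/-- test maps -/
def IsTest (F : XX S A → A) : Prop := ∀ x : K, Pres F (TT R S x) (R.θ (S.base x))

theorem test_pres (o : H → A) (φ : Edge S → Fin 3 → (A × A → A) → A)
    (hφ : ∀ e i, NE R (φ e i)) (h0 : ∀ e, φ e 0 cc = o e.src)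
    (h1 : ∀ e, φ e 0 (dd R e.lab) = φ e 1 cc) (h2 : ∀ e, φ e 1 (dd R e.lab) = φ e 2 cc)
    (h3 : ∀ e, φ e 2 (dd R e.lab) = o e.tgt)
    (hh : ∀ x h h', S.η x h h' → R.θ (S.base x) (o h) (o h')) :
    IsTest R S (Sum.elim o (fun p => φ p.1 p.2.1 p.2.2) : XX S A → A) := by
  intro x
  refine pres_of_gen R S x _ _ (fun p q h => ?_)
  cases h with
  | copy e i w w' h => exact hφ e i _ w w' h
  | g0 e =>
    show R.θ (S.base x) (o e.src) (φ e 0 cc)
    rw [h0]
  | g1 e =>
    show R.θ (S.base x) (φ e 0 (dd R e.lab)) (φ e 1 cc)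
    rw [h1]
  | g2 e =>
    show R.θ (S.base x) (φ e 1 (dd R e.lab)) (φ e 2 cc)
    rw [h2]
  | g3 e =>
    show R.θ (S.base x) (φ e 2 (dd R e.lab)) (o e.tgt)
    rw [h3]
  | hub h h' ha => exact hh x h h' ha

variable {S} in
noncomputable def foldMap (e0 : Edge S) (o : A) (ψ : Fin 3 → (A × A → A) → A) : XX S A → A :=
  Sum.elim (fun _ => o) (fun p => if p.1 = e0 then ψ p.2.1 p.2.2 else o)

theorem fold_pres (e0 : Edge S) (o : A) (ψ : Fin 3 → (A × A → A) → A)
    (hψ : ∀ i, NE R (ψ i)) (h0 : ψ 0 cc = o) (h1 : ψ 0 (dd R e0.lab) = ψ 1 cc)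
    (h2 : ψ 1 (dd R e0.lab) = ψ 2 cc) (h3 : ψ 2 (dd R e0.lab) = o) :
    IsTest R S (foldMap e0 o ψ) := by
  refine test_pres R S (fun _ => o) (fun e i w => if e = e0 then ψ i w else o)
    (fun e i => ?_) (fun e => ?_) (fun e => ?_) (fun e => ?_) (fun e => ?_)
    (fun x _ _ _ => (R.θ _).refl' _)
  all_goals by_cases h : e = e0
  · simpa [h] using hψ i
  · simpa [h] using NE.const R o
  · simp [h, h0]
  · simp [h]
  · simp [h, h1]
  · simp [h]
  · simp [h, h2]
  · simp [h]
  · simp [h, h3]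
  · simp [h]

/-- folding copy `i` of a cell with copy `j` -/
theorem fold_exists (e0 : Edge S) (i j : Fin 3) (hij : i ≠ j) :
    ∃ β : XX S A → Prop, ∀ k : A × A, ∃ F : XX S A → A, IsTest R S F ∧
      (∀ w, F (Sum.inr (e0, i, w)) = w k) ∧
      ∀ q, (∀ w, q ≠ Sum.inr (e0, i, w)) → (∀ w, q ≠ Sum.inr (e0, j, w)) →
        F q = if β q then dd R e0.lab k else cc k := by
  have key : ∀ (bo bv : Prop) (m : Fin 3), (∀ m', m' ≠ i → m' ≠ j → m' = m) →
      (∀ k : A × A, IsTest R S (foldMap e0 (if bo then dd R e0.lab k else cc k)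
        (fun n w => if n = i then w k else if n = j then w (dd R e0.lab k, cc k)
          else if bv then dd R e0.lab k else cc k))) →
      ∃ β : XX S A → Prop, ∀ k : A × A, ∃ F : XX S A → A, IsTest R S F ∧
      (∀ w, F (Sum.inr (e0, i, w)) = w k) ∧
      ∀ q, (∀ w, q ≠ Sum.inr (e0, i, w)) → (∀ w, q ≠ Sum.inr (e0, j, w)) →
        F q = if β q then dd R e0.lab k else cc k := by
    intro bo bv m hm hT
    refine ⟨Sum.elim (fun _ => bo) (fun p => if p.1 = e0 then bv else bo), fun k =>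
      ⟨_, hT k, fun w => by simp [foldMap], fun q hq hq' => ?_⟩⟩
    rcases q with h | ⟨e, n, w⟩
    · by_cases hb : bo <;> simp [foldMap, hb]
    · by_cases he : e = e0
      · subst he
        have h1 : n ≠ i := fun h => hq w (by rw [h])
        have h2 : n ≠ j := fun h => hq' w (by rw [h])
        simp [foldMap, h1, h2]
      · simp [foldMap, he]
  have hne : ∀ (bv : Prop) (k : A × A) (n : Fin 3), NE R (fun w => if n = i then w k
      else if n = j then w (dd R e0.lab k, cc k) else if bv then dd R e0.lab k else cc k) := by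
    intro bv k n
    by_cases h1 : n = i
    · simpa [h1] using NE.proj R k
    · by_cases h2 : n = j
      · simpa [h1, h2, hij.symm] using NE.proj R (dd R e0.lab k, cc k)
      · simpa [h1, h2] using NE.const R _
  have hd : ∀ k : A × A, dd R e0.lab (dd R e0.lab k, cc k) = cc k :=
    fun k => dd_of R ((R.θ e0.lab).symm' (cc_dd R e0.lab k))
  have hc : ∀ k : A × A, cc (dd R e0.lab k, cc k) = dd R e0.lab k := fun _ => rfl
  fin_cases i <;> fin_cases j
  · exact absurd rfl hij
  · exact key False False 2 (by decide)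
      (fun k => fold_pres R S e0 _ _ (hne _ k) (by simp) (by simp [hc]) (by simp [hd]) (by simp))
  · exact key False True 1 (by decide)
      (fun k => fold_pres R S e0 _ _ (hne _ k) (by simp) (by simp) (by simp [hc]) (by simp [hd]))
  · exact key True True 2 (by decide)
      (fun k => fold_pres R S e0 _ _ (hne _ k) (by simp [hc]) (by simp [hd]) (by simp) (by simp))
  · exact absurd rfl hij
  · exact key False False 0 (by decide)
      (fun k => fold_pres R S e0 _ _ (hne _ k) (by simp) (by simp) (by simp [hc]) (by simp [hd]))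
  · exact key True False 1 (by decide)
      (fun k => fold_pres R S e0 _ _ (hne _ k) (by simp [hc]) (by simp [hd]) (by simp) (by simp))
  · exact key True True 0 (by decide)
      (fun k => fold_pres R S e0 _ _ (hne _ k) (by simp) (by simp [hc]) (by simp [hd]) (by simp))
  · exact absurd rfl hij

end Vale.Agent.P183.G
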