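import Mathlib
import Vale.Agent.P183.Cell

namespace Vale.Agent.P183

open Classical

variable {L M A B : Type} [PartialOrder L] [PartialOrder M] [OrderBot M] {C : Set L}
  {lam : L → M}
variable (R : Rep L A) (S : Rep M B)

theorem infl_le {x y : Infl C lam} :
    x ≤ y ↔ x.base ≤ y.base ∧ (x.base ∈ C → y.base ∈ C → x.fib ≤ y.fib) := Iff.rfl

theorem infl_anti (x y : Infl C lam) (h : x ≤ y) (h' : y ≤ x) : x = y := by
  obtain ⟨a, b, hge, hab⟩ := x
  obtain ⟨a', b', hge', hab'⟩ := y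
  have h1 : a = a' := le_antisymm h.1 h'.1
  subst h1
  have h2 : b = b' := by
    by_cases ha : a ∈ C
    · exact le_antisymm (h.2 ha ha) (h'.2 ha ha)
    · rw [hab ha, hab' ha]
  subst h2
  rfl

theorem TT_mono (hC : C.OrdConnected) {x y : Infl C lam} (h : x ≤ y) : TT R S x ≤ TT R S y := by
  intro p q hpq
  refine pres_of_gen R S x id (TT R S y) (fun p q hg => ?_) p q hpq
  cases hg with
  | copy e i w w' hw => exact TT.of R S (Gen.copy e i w w' fun k => R.mono h.1 (hw k))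
  | g0 e => exact TT.of R S (Gen.g0 e)
  | g1 e => exact TT.of R S (Gen.g1 e)
  | g2 e => exact TT.of R S (Gen.g2 e)
  | g3 e => exact TT.of R S (Gen.g3 e)
  | hub a b b' ha hb =>
    refine TT.of R S (Gen.hub a b b' (ha.trans h.1) fun hy => ?_)
    have hx : x.base ∈ C := hC.out a.2 hy ⟨ha, h.1⟩
    exact S.mono (h.2 hx hy) (hb hx)

variable {S} in
/-- the diagonal copy of `A` inside the middle copy of a cell -/
def io (e0 : Edge C S lam) (s : A) : XX C S lam A := Sum.inr (e0, 1, fun _ => s)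

theorem io_pres (e0 : Edge C S lam) (x : Infl C lam) : Pres (io e0) (R.θ x.base) (TT R S x) :=
  fun _ _ h => TT.of R S (Gen.copy e0 1 _ _ fun _ => h)

theorem retr_exists [Nonempty A] (e0 : Edge C S lam) :
    ∃ r : XX C S lam A → A, IsTest R S r ∧ ∀ s, r (io e0 s) = s := by
  obtain ⟨β, h⟩ := fold_exists R S e0 1 0 (by decide)
  obtain ⟨F, hF, h1, _⟩ := h (Classical.arbitrary _)
  exact ⟨F, hF, fun s => h1 _⟩

theorem hub_inv (hC : C.OrdConnected) (hlam : MonotoneOn lam C) (x : Infl C lam) (hx : x.base ∈ C) {a a' : C} {b b' : B}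
    (h : TT R S x (Sum.inl (a, b)) (Sum.inl (a', b'))) : S.θ x.fib b b' := by
  let ψ : XX C S lam A → B := Sum.elim (fun h => h.2) (fun p =>
    if p.2.1 = 2 ∧ ∀ k, R.θ x.base (p.2.2 k) (dd R p.1.lab k) then p.1.tgt.2 else p.1.src.2)
  refine pres_of_gen R S x ψ (S.θ x.fib) (fun p q hg => ?_) _ _ h
  cases hg with
  | copy e i w w' hw =>
    have h1 : (∀ k, R.θ x.base (w k) (dd R e.lab k)) ↔ ∀ k, R.θ x.base (w' k) (dd R e.lab k) :=
      ⟨fun h k => (R.θ _).trans' ((R.θ _).symm' (hw k)) (h k),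
        fun h k => (R.θ _).trans' (hw k) (h k)⟩
    simp only [ψ, Sum.elim_inr, h1]
    exact (S.θ _).refl' _
  | g0 e => simp [ψ]
  | g1 e => simp [ψ]
  | g2 e =>
    by_cases hl : ∀ k, R.θ x.base (cc k) (dd R e.lab k)
    · have h1 : e.lab ≤ x.base := (R.le_iff _ _).1 (fun s t hst => by
        have h2 := hl (s, t)
        rwa [dd_of R hst] at h2)
      have h3 : e.lab ∈ C := hC.out e.src.1.2 hx ⟨e.h1, h1⟩
      have h2 : S.θ x.fib e.src.2 e.tgt.2 :=
        S.mono ((hlam h3 hx h1).trans (x.fib_ge hx)) (e.h3 h3)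
      simp only [ψ, Sum.elim_inr, hl, implies_true, and_self, if_true]
      simpa using h2
    · simp only [ψ, Sum.elim_inr, hl, and_false, if_false]
      simp
  | g3 e => simp [ψ]
  | hub a b b' _ hb => exact hb hx

theorem TT_le_iff [Nonempty A] (hC : C.OrdConnected) (hlam : MonotoneOn lam C) (e0 : Edge C S lam) (x y : Infl C lam) :
    TT R S x ≤ TT R S y ↔ x ≤ y := by
  refine ⟨fun h => ?_, TT_mono R S hC⟩
  obtain ⟨r, hr, hr'⟩ := retr_exists R S e0
  refine ⟨(R.le_iff _ _).1 (fun s t hst => ?_), fun hx hy => (S.le_iff _ _).1 (fun b b' hb => ?_)⟩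
  · have h1 := hr y _ _ (h (io_pres R S e0 x s t hst))
    rwa [hr', hr'] at h1
  · exact hub_inv R S hC hlam y hy (h (TT.of R S (Gen.hub ⟨x.base, hx⟩ b b' le_rfl fun _ => hb)))

/-- a cell whose label is below the level is contracted -/
theorem cell_conn (Θ : Setoid (XX C S lam A)) (y : L)
    (hcopy : ∀ e i w w', (∀ k, R.θ y (w k) (w' k)) → Θ (Sum.inr (e, i, w)) (Sum.inr (e, i, w')))
    (x0 : Infl C lam) (h0 : TT R S x0 ≤ Θ) (e : Edge C S lam) (he : e.lab ≤ y) :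
    Θ (Sum.inl e.src) (Sum.inr (e, 1, cc)) ∧ Θ (Sum.inl e.src) (Sum.inr (e, 2, cc)) ∧
      Θ (Sum.inl e.src) (Sum.inl e.tgt) := by
  have hc : ∀ i, Θ (Sum.inr (e, i, cc)) (Sum.inr (e, i, dd R e.lab)) :=
    fun i => hcopy e i _ _ fun k => R.mono he (cc_dd R e.lab k)
  have h1 : Θ (Sum.inl e.src) (Sum.inr (e, 1, cc)) :=
    Θ.trans' (h0 (TT.of R S (Gen.g0 e))) (Θ.trans' (hc 0) (h0 (TT.of R S (Gen.g1 e))))
  have h2 : Θ (Sum.inl e.src) (Sum.inr (e, 2, cc)) :=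
    Θ.trans' h1 (Θ.trans' (hc 1) (h0 (TT.of R S (Gen.g2 e))))
  exact ⟨h1, h2, Θ.trans' h2 (Θ.trans' (hc 2) (h0 (TT.of R S (Gen.g3 e))))⟩

variable {S} in
def NF (y : L) (n : XX C S lam A) : Prop :=
  (∃ h, n = Sum.inl h) ∨ (∃ e : Edge C S lam, ¬ e.lab ≤ y ∧ n = Sum.inr (e, 1, cc)) ∨
    ∃ e : Edge C S lam, ¬ e.lab ≤ y ∧ n = Sum.inr (e, 2, cc)

theorem nf_c (x : Infl C lam) (e : Edge C S lam) (i : Fin 3) :
    ∃ n, NF x.base n ∧ TT R S x (Sum.inr (e, i, cc)) n := by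
  have hconn := cell_conn R S (TT R S x) x.base
    (fun e i w w' h => TT.of R S (Gen.copy e i w w' h)) x le_rfl e
  fin_cases i
  · exact ⟨_, Or.inl ⟨_, rfl⟩, (TT R S x).symm' (TT.of R S (Gen.g0 e))⟩
  · by_cases he : e.lab ≤ x.base
    · exact ⟨_, Or.inl ⟨_, rfl⟩, (TT R S x).symm' (hconn he).1⟩
    · exact ⟨_, Or.inr (Or.inl ⟨e, he, rfl⟩), (TT R S x).refl' _⟩
  · by_cases he : e.lab ≤ x.base
    · exact ⟨_, Or.inl ⟨_, rfl⟩, (TT R S x).symm' (hconn he).2.1⟩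
    · exact ⟨_, Or.inr (Or.inr ⟨e, he, rfl⟩), (TT R S x).refl' _⟩

theorem nf_d (x : Infl C lam) (e : Edge C S lam) (i : Fin 3) :
    ∃ n, NF x.base n ∧ TT R S x (Sum.inr (e, i, dd R e.lab)) n := by
  fin_cases i
  · obtain ⟨n, hn, h⟩ := nf_c R S x e 1
    exact ⟨n, hn, (TT R S x).trans' (TT.of R S (Gen.g1 e)) h⟩
  · obtain ⟨n, hn, h⟩ := nf_c R S x e 2
    exact ⟨n, hn, (TT R S x).trans' (TT.of R S (Gen.g2 e)) h⟩
  · exact ⟨_, Or.inl ⟨_, rfl⟩, TT.of R S (Gen.g3 e)⟩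

section upper

variable (Θ : Setoid (XX C S lam A)) (x : Infl C lam)
  (HT : ∀ F : XX C S lam A → A, IsTest R S F → ∀ p q, Θ p q → R.θ x.base (F p) (F q))
include HT

theorem same_copy (e : Edge C S lam) (i : Fin 3) (w w' : A × A → A)
    (h : Θ (Sum.inr (e, i, w)) (Sum.inr (e, i, w'))) :
    TT R S x (Sum.inr (e, i, w)) (Sum.inr (e, i, w')) := by
  obtain ⟨j, hj⟩ : ∃ j : Fin 3, i ≠ j := by
    fin_cases i
    exacts [⟨1, by decide⟩, ⟨0, by decide⟩, ⟨0, by decide⟩]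
  obtain ⟨β, hβ⟩ := fold_exists R S e i j hj
  refine TT.of R S (Gen.copy e i w w' fun k => ?_)
  obtain ⟨F, hF, h1, _⟩ := hβ k
  have h2 := HT F hF _ _ h
  rwa [h1, h1] at h2

theorem anchor (e : Edge C S lam) (i : Fin 3) (w : A × A → A) (q : XX C S lam A)
    (h : Θ (Sum.inr (e, i, w)) q) (hq : ∀ w', q ≠ Sum.inr (e, i, w')) :
    ∃ n, NF x.base n ∧ TT R S x (Sum.inr (e, i, w)) n := by
  obtain ⟨j, hj, hqj⟩ : ∃ j : Fin 3, i ≠ j ∧ ∀ w', q ≠ Sum.inr (e, j, w') := by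
    rcases q with h' | ⟨e', m, w'⟩
    · obtain ⟨j, hj⟩ : ∃ j : Fin 3, i ≠ j := by
        fin_cases i
        exacts [⟨1, by decide⟩, ⟨0, by decide⟩, ⟨0, by decide⟩]
      exact ⟨j, hj, fun _ => Sum.inl_ne_inr⟩
    · obtain ⟨j, hj, hj'⟩ : ∃ j : Fin 3, i ≠ j ∧ m ≠ j :=
        (by decide : ∀ i m : Fin 3, ∃ j : Fin 3, i ≠ j ∧ m ≠ j) i m
      refine ⟨j, hj, fun w'' hw => hj' ?_⟩
      simp only [Sum.inr.injEq, Prod.mk.injEq] at hw
      exact hw.2.1
  obtain ⟨β, hβ⟩ := fold_exists R S e i j hj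
  have key : ∀ k, R.θ x.base (w k) (if β q then dd R e.lab k else cc k) := by
    intro k
    obtain ⟨F, hF, h1, h2⟩ := hβ k
    have h3 := HT F hF _ _ h
    rwa [h1, h2 q hq hqj] at h3
  by_cases hb : β q
  · obtain ⟨n, hn, h1⟩ := nf_d R S x e i
    refine ⟨n, hn, (TT R S x).trans' (TT.of R S (Gen.copy e i _ _ fun k => ?_)) h1⟩
    simpa [hb] using key k
  · obtain ⟨n, hn, h1⟩ := nf_c R S x e i
    refine ⟨n, hn, (TT R S x).trans' (TT.of R S (Gen.copy e i _ _ fun k => ?_)) h1⟩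
    simpa [hb] using key k

theorem sep1 (e : Edge C S lam) (he : ¬ e.lab ≤ x.base) (n : XX C S lam A) (hn : NF x.base n)
    (h : Θ (Sum.inr (e, 1, cc)) n) : n = Sum.inr (e, 1, cc) := by
  by_contra hne
  refine he ((R.le_iff _ _).1 fun s t hst => ?_)
  have hF := fold_pres R S e s ![fun w => w (s, t), fun w => w (t, s), fun _ => s]
    (fun i => by
      fin_cases i
      exacts [NE.proj R _, NE.proj R _, NE.const R _])
    rfl (by simp [dd_of R hst, cc]) (by simp [dd_of R ((R.θ _).symm' hst)]) rfl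
  have h1 := HT _ hF _ _ h
  have h2 : foldMap e s ![fun w => w (s, t), fun w => w (t, s), fun _ => s] n = s := by
    rcases hn with ⟨h', rfl⟩ | ⟨e', _, rfl⟩ | ⟨e', _, rfl⟩
    · rfl
    · have h3 : e' ≠ e := fun h3 => hne (by rw [h3])
      simp [foldMap, h3]
    · simp [foldMap]
  rw [h2] at h1
  exact (R.θ _).symm' (by simpa [foldMap, cc] using h1)

theorem sep2 (e : Edge C S lam) (he : ¬ e.lab ≤ x.base) (n : XX C S lam A) (hn : NF x.base n)
    (h : Θ (Sum.inr (e, 2, cc)) n) : n = Sum.inr (e, 2, cc) := by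
  by_contra hne
  refine he ((R.le_iff _ _).1 fun s t hst => ?_)
  have hF := fold_pres R S e s ![fun _ => s, fun w => w (s, t), fun w => w (t, s)]
    (fun i => by
      fin_cases i
      exacts [NE.const R _, NE.proj R _, NE.proj R _])
    rfl rfl (by simp [dd_of R hst, cc]) (by simp [dd_of R ((R.θ _).symm' hst)])
  have h1 := HT _ hF _ _ h
  have h2 : foldMap e s ![fun _ => s, fun w => w (s, t), fun w => w (t, s)] n = s := by
    rcases hn with ⟨h', rfl⟩ | ⟨e', _, rfl⟩ | ⟨e', _, rfl⟩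
    · rfl
    · simp [foldMap, cc]
    · have h3 : e' ≠ e := fun h3 => hne (by rw [h3])
      simp [foldMap, h3]
  rw [h2] at h1
  exact (R.θ _).symm' (by simpa [foldMap, cc] using h1)

theorem hub_level (h h' : C × B) (hne : h' ≠ h) (hh : Θ (Sum.inl h) (Sum.inl h')) :
    h.1.1 ≤ x.base := by
  refine (R.le_iff _ _).1 fun s t hst => ?_
  let o : C × B → A := fun g => if g = h then s else t
  have ho : ∀ (l : L) (g g' : C × B), (g = h → h.1.1 ≤ l) → (g' = h → h.1.1 ≤ l) →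
      R.θ l (o g) (o g') := by
    intro l g g' h1 h2
    by_cases hg : g = h <;> by_cases hg' : g' = h
    · simp [o, hg, hg']
    · simpa [o, hg, hg'] using R.mono (h1 hg) hst
    · simpa [o, hg, hg'] using (R.θ l).symm' (R.mono (h2 hg') hst)
    · simp [o, hg, hg']
  have hF := test_pres (lam := lam) R S o
    (fun e => ![fun w => w (o e.src, o e.tgt), fun _ => o e.tgt, fun _ => o e.tgt])
    (fun e i => by
      fin_cases i
      exacts [NE.proj R _, NE.const R _, NE.const R _])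
    (fun _ => rfl)
    (fun e => dd_of R (ho e.lab _ _ (fun h1 => h1 ▸ e.h1) (fun h1 => h1 ▸ e.h2)))
    (fun _ => rfl) (fun _ => rfl)
    (fun a b b' => ho _ _ _ (fun h1 => (h1 ▸ le_rfl)) (fun h1 => (h1 ▸ le_rfl)))
  have h1 := HT _ hF _ _ hh
  simpa [o, hne] using h1

end upper

theorem closed_main [Finite A] [Nonempty A] (e0 : Edge C S lam) (x0 : Infl C lam)
    (Θ : Setoid (XX C S lam A)) (h0 : TT R S x0 ≤ Θ)
    (hΘ : ∀ f : XX C S lam A → XX C S lam A, (∀ x : Infl C lam, Pres f (TT R S x) (TT R S x)) → Pres f Θ Θ) :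
    ∃ x : Infl C lam, Θ = TT R S x := by
  obtain ⟨r, hr, hr'⟩ := retr_exists R S e0
  obtain ⟨y, hy⟩ := R.closed (Setoid.comap (io e0) Θ) (fun g hg s t hst => by
    have h1 := hΘ (fun q => io e0 (g (r q)))
      (fun x p q hpq => io_pres R S e0 x _ _ (hg _ _ _ (hr x p q hpq))) _ _ hst
    simp only [hr'] at h1
    exact h1)
  have hy' : ∀ s t, R.θ y s t ↔ Θ (io e0 s) (io e0 t) := fun s t => by
    rw [← hy]
    exact Iff.rfl
  have HT : ∀ F : XX C S lam A → A, IsTest R S F → ∀ p q, Θ p q → R.θ y (F p) (F q) :=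
    fun F hF p q hpq => (hy' _ _).2 (hΘ (fun q => io e0 (F q))
      (fun x p q hpq => io_pres R S e0 x _ _ (hF x p q hpq)) _ _ hpq)
  have hcopy : ∀ e i w w', (∀ k, R.θ y (w k) (w' k)) →
      Θ (Sum.inr (e, i, w)) (Sum.inr (e, i, w')) := by
    intro e i
    refine chain (R.θ y) Θ (fun w => Sum.inr (e, i, w)) (fun w k a b hab => ?_)
    have h1 := hΘ (fun q => Sum.inr (e, i, Function.update w k (r q)))
      (fun x p q hpq => TT.of R S (Gen.copy e i _ _ fun j => by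
        by_cases hj : j = k
        · subst hj
          simpa using hr x p q hpq
        · simp [hj])) _ _ ((hy' a b).1 hab)
    simpa only [hr'] using h1
  obtain ⟨x, hxy, hxz⟩ : ∃ x : Infl C lam, x.base = y ∧ ∀ hc : y ∈ C, ∀ b b',
      S.θ x.fib b b' ↔ Θ (Sum.inl (⟨y, hc⟩, b)) (Sum.inl (⟨y, hc⟩, b')) := by
    by_cases hc : y ∈ C
    · obtain ⟨z, hz⟩ := S.closed (Setoid.comap (fun b => (Sum.inl (⟨y, hc⟩, b) : XX C S lam A)) Θ)
        (fun g hg b b' hb => by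
          let ge : Edge C S lam → Edge C S lam := fun e =>
            ⟨(e.src.1, g e.src.2), (e.tgt.1, g e.tgt.2), e.lab, e.h1, e.h2,
              fun h => hg _ _ _ (e.h3 h)⟩
          exact hΘ (Sum.map (fun h => (h.1, g h.2)) (fun p => (ge p.1, p.2)))
            (fun x => pres_of_gen R S x _ _ (fun p q hpq => by
              cases hpq with
              | copy e i w w' hw => exact TT.of R S (Gen.copy (ge e) i w w' hw)
              | g0 e => exact TT.of R S (Gen.g0 (ge e))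
              | g1 e => exact TT.of R S (Gen.g1 (ge e))
              | g2 e => exact TT.of R S (Gen.g2 (ge e))
              | g3 e => exact TT.of R S (Gen.g3 (ge e))
              | hub a b b' ha hb =>
                exact TT.of R S (Gen.hub a (g b) (g b') ha fun h => hg _ _ _ (hb h)))) _ _ hb)
      have hz' : ∀ b b', S.θ z b b' ↔ Θ (Sum.inl (⟨y, hc⟩, b)) (Sum.inl (⟨y, hc⟩, b')) := by
        intro b b'
        rw [← hz]
        exact Iff.rfl
      have hge : lam y ≤ z := (S.le_iff _ _).1 fun b b' hb => (hz' b b').2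
        (cell_conn R S Θ y hcopy x0 h0
          ⟨(⟨y, hc⟩, b), (⟨y, hc⟩, b'), y, le_rfl, le_rfl, fun _ => hb⟩ le_rfl).2.2
      exact ⟨⟨y, z, fun _ => hge, fun h => absurd hc h⟩, rfl, fun _ => hz'⟩
    · exact ⟨⟨y, ⊥, fun h => absurd h hc, fun _ => rfl⟩, rfl, fun h => absurd h hc⟩
  subst hxy
  have hlow : TT R S x ≤ Θ := by
    intro p q hpq
    refine pres_of_gen R S x id Θ (fun p q hg => ?_) p q hpq
    cases hg with
    | copy e i w w' hw => exact hcopy e i w w' hw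
    | g0 e => exact h0 (TT.of R S (Gen.g0 e))
    | g1 e => exact h0 (TT.of R S (Gen.g1 e))
    | g2 e => exact h0 (TT.of R S (Gen.g2 e))
    | g3 e => exact h0 (TT.of R S (Gen.g3 e))
    | hub a b b' ha hb =>
      by_cases hc : x.base ∈ C
      · have h1 : ∀ b, Θ (Sum.inl (a, b)) (Sum.inl (⟨x.base, hc⟩, b)) := fun b =>
          (cell_conn R S Θ x.base hcopy x0 h0
            ⟨(a, b), (⟨x.base, hc⟩, b), x.base, ha, le_rfl, fun _ => (S.θ _).refl' _⟩ le_rfl).2.2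
        exact Θ.trans' (h1 b) (Θ.trans' ((hxz hc b b').1 (hb hc)) (Θ.symm' (h1 b')))
      · exact (cell_conn R S Θ x.base hcopy x0 h0
          ⟨(a, b), (a, b'), x.base, ha, ha, fun h => absurd h hc⟩ le_rfl).2.2
  have hconn := cell_conn R S (TT R S x) x.base
    (fun e i w w' h => TT.of R S (Gen.copy e i w w' h)) x le_rfl
  have hhub : ∀ h h' : C × B, Θ (Sum.inl h) (Sum.inl h') → TT R S x (Sum.inl h) (Sum.inl h') := by
    intro h h' hh
    by_cases hne : h' = h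
    · rw [hne]
    have h1 := hub_level R S Θ x HT h h' hne hh
    have h2 := hub_level R S Θ x HT h' h (Ne.symm hne) (Θ.symm' hh)
    by_cases hc : x.base ∈ C
    · have h3 := (hconn ⟨h, (⟨x.base, hc⟩, h.2), x.base, h1, le_rfl,
        fun _ => (S.θ _).refl' _⟩ le_rfl).2.2
      have h4 := (hconn ⟨h', (⟨x.base, hc⟩, h'.2), x.base, h2, le_rfl,
        fun _ => (S.θ _).refl' _⟩ le_rfl).2.2
      have h5 := (hxz hc h.2 h'.2).2 (Θ.trans' (Θ.symm' (hlow h3)) (Θ.trans' hh (hlow h4)))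
      exact (TT R S x).trans' h3 ((TT R S x).trans'
        (TT.of R S (Gen.hub ⟨x.base, hc⟩ h.2 h'.2 le_rfl fun _ => h5)) ((TT R S x).symm' h4))
    · exact (hconn ⟨h, h', x.base, h1, h2, fun h => absurd h hc⟩ le_rfl).2.2
  have hnf : ∀ n n', NF x.base n → NF x.base n' → Θ n n' → TT R S x n n' := by
    intro n n' hn hn' h
    rcases hn with ⟨g, rfl⟩ | ⟨e, he, rfl⟩ | ⟨e, he, rfl⟩
    · rcases hn' with ⟨g', rfl⟩ | ⟨e, he, rfl⟩ | ⟨e, he, rfl⟩
      · exact hhub g g' h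
      · rw [sep1 R S Θ x HT e he _ (Or.inl ⟨g, rfl⟩) (Θ.symm' h)]
      · rw [sep2 R S Θ x HT e he _ (Or.inl ⟨g, rfl⟩) (Θ.symm' h)]
    · rw [sep1 R S Θ x HT e he _ hn' h]
    · rw [sep2 R S Θ x HT e he _ hn' h]
  refine ⟨x, le_antisymm (fun p q hpq => ?_) hlow⟩
  by_cases hs : ∃ e i w w', p = Sum.inr (e, i, w) ∧ q = Sum.inr (e, i, w')
  · obtain ⟨e, i, w, w', rfl, rfl⟩ := hs
    exact same_copy R S Θ x HT e i w w' hpq
  · obtain ⟨n, hn, h1⟩ : ∃ n, NF x.base n ∧ TT R S x p n := by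
      rcases p with g | ⟨e, i, w⟩
      · exact ⟨_, Or.inl ⟨g, rfl⟩, (TT R S x).refl' _⟩
      · exact anchor R S Θ x HT e i w q hpq (fun w' h => hs ⟨e, i, w, w', rfl, h⟩)
    obtain ⟨n', hn', h2⟩ : ∃ n, NF x.base n ∧ TT R S x q n := by
      rcases q with g | ⟨e, i, w⟩
      · exact ⟨_, Or.inl ⟨g, rfl⟩, (TT R S x).refl' _⟩
      · exact anchor R S Θ x HT e i w p (Θ.symm' hpq) (fun w' h => hs ⟨e, i, w', w, h, rfl⟩)
    have h3 := hnf n n' hn hn' (Θ.trans' (Θ.symm' (hlow h1)) (Θ.trans' hpq (hlow h2)))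
    exact (TT R S x).trans' h1 ((TT R S x).trans' h3 ((TT R S x).symm' h2))

theorem infl_rep (hC : C.OrdConnected) (hlam : MonotoneOn lam C) (hL : Representable L) (hM : Representable M) :
    Representable (Infl C lam) := by
  rcases C.eq_empty_or_nonempty with hE | ⟨a0, ha0⟩
  · have hn : ∀ y : L, y ∉ C := fun y => by simp [hE]
    refine Representable.iso (L := L) ⟨⟨fun x => x.base, fun y => ⟨y, ⊥, fun h => absurd h (hn _), fun _ => rfl⟩,
      fun x => ?_, fun _ => rfl⟩, ?_⟩ hL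
    · exact infl_anti _ _ ⟨le_rfl, fun h => absurd h (hn _)⟩ ⟨le_rfl, fun h => absurd h (hn _)⟩
    · intro x y
      exact ⟨fun h => ⟨h, fun h' => absurd h' (hn _)⟩, fun h => h.1⟩
  · obtain ⟨A, hA, hAn, ⟨R⟩⟩ := rep_of hL
    obtain ⟨B, hB, hBn, ⟨S⟩⟩ := rep_of hM
    have hfin : Finite L := R.finite
    obtain ⟨y0, hy0⟩ := R.exists_bot
    obtain ⟨b0⟩ := hBn
    let e0 : Edge C S lam := ⟨(⟨a0, ha0⟩, b0), (⟨a0, ha0⟩, b0), a0, le_rfl, le_rfl,
      fun _ => (S.θ _).refl' _⟩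
    have hne : Nonempty (XX C S lam A) := ⟨Sum.inl e0.src⟩
    exact of_prerep infl_anti (TT R S) (TT_le_iff R S hC hlam e0)
      ⟨y0, if y0 ∈ C then lam y0 else ⊥, fun h => by simp [h], fun h => by simp [h]⟩
      (fun x => ⟨hy0 _, fun h h' => by
        have h1 : y0 ∈ C := h
        simpa [h1] using (hlam h1 h' (hy0 _)).trans (x.fib_ge h')⟩) (closed_main R S e0 _)

theorem doubled_rep (K : Type) (iK : Lattice K) (h : Doubled K iK) : Representable K := by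
  induction h with
  | one K iK h1 h2 => exact rep_one K
  | step L iL C K iK _ hC he ih =>
    obtain ⟨e⟩ := he
    exact Representable.iso e (infl_rep hC (fun _ _ _ _ _ => le_rfl) ih rep_bool)

theorem neutral_rep (K : Type) [Lattice K] [Finite K] (c : K)
    (h1 : ∀ x y, x ⊓ (c ⊔ y) = (x ⊓ c) ⊔ (x ⊓ y))
    (h2 : ∀ x y, c ⊓ (x ⊔ y) = (c ⊓ x) ⊔ (c ⊓ y))
    (hU : Representable (Set.Ici c)) (hD : Representable (Set.Iic c)) : Representable K := by
  have hne : Nonempty K := ⟨c⟩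
  have hft := Fintype.ofFinite K
  let iB : BoundedOrder K := Fintype.toBoundedOrder K
  have hdis : ∀ x y, c ⊔ (x ⊓ y) = (c ⊔ x) ⊓ (c ⊔ y) := by
    intro x y
    have h3 := h1 (c ⊔ x) y
    have h4 : (c ⊔ x) ⊓ y = (y ⊓ c) ⊔ (y ⊓ x) := by rw [inf_comm, h1]
    rw [h3, h4, inf_eq_right.2 (le_sup_left : c ≤ c ⊔ x), ← sup_assoc,
      sup_eq_left.2 (inf_le_right : y ⊓ c ≤ c), inf_comm]
  let sg : K → K := fun y => (Finset.univ.filter fun x => y ≤ c ⊔ x).inf id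
  have hs1 : ∀ y x, y ≤ c ⊔ x → sg y ≤ x := fun y x h =>
    Finset.inf_le (f := id) (Finset.mem_filter.2 ⟨Finset.mem_univ _, h⟩)
  have hs2 : ∀ y, y ≤ c ⊔ sg y := by
    intro y
    refine Finset.inf_induction (p := fun t => y ≤ c ⊔ t) (by simp) (fun a ha b hb => ?_)
      (fun b hb => (Finset.mem_filter.1 hb).2)
    rw [hdis]
    exact le_inf ha hb
  let lam : Set.Ici c → Set.Iic c := fun y => ⟨c ⊓ sg y.1, inf_le_left⟩
  have hm : MonotoneOn lam Set.univ := fun y _ y' _ h =>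
    inf_le_inf_left c (hs1 _ _ (le_trans h (hs2 _)))
  let f : K → Infl Set.univ lam := fun x => ⟨⟨c ⊔ x, le_sup_left⟩, ⟨c ⊓ x, inf_le_left⟩,
    fun _ => inf_le_inf_left c (hs1 _ _ le_rfl), fun h => absurd (Set.mem_univ _) h⟩
  have hf : ∀ x y, f x ≤ f y ↔ x ≤ y := by
    intro x y
    refine ⟨fun h => ?_, fun h => ⟨sup_le_sup_left h c, fun _ _ => inf_le_inf_left c h⟩⟩
    have h3 : c ⊔ x ≤ c ⊔ y := h.1
    have h4 : c ⊓ x ≤ c ⊓ y := h.2 trivial trivial
    have h5 : x = (x ⊓ c) ⊔ (x ⊓ y) := by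
      rw [← h1]
      exact (inf_eq_left.2 (le_sup_right.trans h3)).symm
    rw [h5]
    exact sup_le ((inf_comm x c).le.trans (h4.trans inf_le_right)) inf_le_right
  refine Representable.iso ⟨Equiv.ofBijective f ⟨fun x y h => ?_, fun q => ?_⟩, ?_⟩
    (infl_rep (lam := lam) Set.ordConnected_univ hm hU hD)
  · exact le_antisymm ((hf x y).1 (h ▸ ⟨le_rfl, fun _ _ => le_rfl⟩))
      ((hf y x).1 (h ▸ ⟨le_rfl, fun _ _ => le_rfl⟩))
  · have h3 : c ⊓ sg q.base.1 ≤ q.fib.1 := q.fib_ge trivial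
    have h4 : q.fib.1 ≤ c := q.fib.2
    have h5 : c ≤ q.base.1 := q.base.2
    have h6 : sg q.base.1 ≤ q.base.1 := hs1 _ _ le_sup_right
    refine ⟨sg q.base.1 ⊔ q.fib.1, infl_anti _ _ ⟨?_, fun _ _ => ?_⟩ ⟨?_, fun _ _ => ?_⟩⟩
    · exact sup_le h5 (sup_le h6 (h4.trans h5))
    · show c ⊓ (sg q.base.1 ⊔ q.fib.1) ≤ q.fib.1
      rw [h2]
      exact sup_le h3 inf_le_right
    · exact (hs2 _).trans (sup_le_sup_left le_sup_left c)
    · exact le_inf h4 le_sup_right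
  · exact fun {x y} => hf x y

theorem minimal_neutral (K : Type) [Lattice K] [Finite K]
    (hmin : ∀ (L : Type) [Lattice L] [Finite L] [Nonempty L], Nat.card L < Nat.card K →
      Representable L) (hK : ¬ Representable K) (c : K)
    (h1 : ∀ x y, x ⊓ (c ⊔ y) = (x ⊓ c) ⊔ (x ⊓ y))
    (h2 : ∀ x y, c ⊓ (x ⊔ y) = (c ⊓ x) ⊔ (c ⊓ y)) : IsBot c ∨ IsTop c := by
  by_contra hc
  rw [not_or] at hc
  have hU : Nonempty (Set.Ici c) := ⟨⟨c, le_rfl⟩⟩
  have hD : Nonempty (Set.Iic c) := ⟨⟨c, le_rfl⟩⟩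
  refine hK (neutral_rep K c h1 h2 (hmin _ ?_) (hmin _ ?_))
  · obtain ⟨x, hx⟩ := not_forall.1 hc.1
    exact Finite.card_subtype_lt (p := fun y => y ∈ Set.Ici c) (x := x) hx
  · obtain ⟨x, hx⟩ := not_forall.1 hc.2
    exact Finite.card_subtype_lt (p := fun y => y ∈ Set.Iic c) (x := x) hx

end Vale.Agent.P183
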