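import Mathlib
import Vale.Agent.P183.Cell2

namespace Vale.Agent.P183.G

open Classical

variable {L K A H : Type} [PartialOrder L] [PartialOrder K]
variable (R : Rep L A) (S : Sys L K H)

theorem base_mono {x y : K} (h : x ≤ y) : S.base x ≤ S.base y :=
  (S.adj _ _).1 (((S.adj _ _).2 le_rfl).trans h)

theorem TT_mono {x y : K} (h : x ≤ y) : TT R S x ≤ TT R S y := by
  intro p q hpq
  refine pres_of_gen R S x id (TT R S y) (fun p q hg => ?_) p q hpq
  cases hg with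
  | copy e i w w' hw => exact TT.of R S (Gen.copy e i w w' fun k => R.mono (base_mono S h) (hw k))
  | g0 e => exact TT.of R S (Gen.g0 e)
  | g1 e => exact TT.of R S (Gen.g1 e)
  | g2 e => exact TT.of R S (Gen.g2 e)
  | g3 e => exact TT.of R S (Gen.g3 e)
  | hub g g' ha => exact TT.of R S (Gen.hub g g' (S.mono _ _ h ha))

variable {S} in
/-- the diagonal copy of `A` inside the middle copy of a cell -/
def io (e0 : Edge S) (s : A) : XX S A := Sum.inr (e0, 1, fun _ => s)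

theorem io_pres (e0 : Edge S) (x : K) : Pres (io e0) (R.θ (S.base x)) (TT R S x) :=
  fun _ _ h => TT.of R S (Gen.copy e0 1 _ _ fun _ => h)

theorem retr_exists [Nonempty A] (e0 : Edge S) :
    ∃ r : XX S A → A, IsTest R S r ∧ ∀ s, r (io e0 s) = s := by
  obtain ⟨β, h⟩ := fold_exists R S e0 1 0 (by decide)
  obtain ⟨F, hF, h1, _⟩ := h (Classical.arbitrary _)
  exact ⟨F, hF, fun s => h1 _⟩

theorem hub_inv (x : K) {g g' : H} (h : TT R S x (Sum.inl g) (Sum.inl g')) : S.η x g g' := by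
  let ψ : XX S A → H := Sum.elim id (fun p =>
    if p.2.1 = 2 ∧ ∀ k, R.θ (S.base x) (p.2.2 k) (dd R p.1.lab k) then p.1.tgt else p.1.src)
  refine pres_of_gen R S x ψ (S.η x) (fun p q hg => ?_) _ _ h
  cases hg with
  | copy e i w w' hw =>
    have h1 : (∀ k, R.θ (S.base x) (w k) (dd R e.lab k)) ↔
        ∀ k, R.θ (S.base x) (w' k) (dd R e.lab k) :=
      ⟨fun h k => (R.θ _).trans' ((R.θ _).symm' (hw k)) (h k),
        fun h k => (R.θ _).trans' (hw k) (h k)⟩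
    simp only [ψ, Sum.elim_inr, h1]
    exact (S.η _).refl' _
  | g0 e => simp [ψ]
  | g1 e => simp [ψ]
  | g2 e =>
    by_cases hl : ∀ k, R.θ (S.base x) (cc k) (dd R e.lab k)
    · have h1 : e.lab ≤ S.base x := (R.le_iff _ _).1 (fun s t hst => by
        have h2 := hl (s, t)
        rwa [dd_of R hst] at h2)
      have h2 : S.η x e.src e.tgt := S.mono _ _ ((S.adj _ _).2 h1) e.h3
      simp only [ψ, Sum.elim_inr, hl, implies_true, and_self, if_true]
      simpa using h2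
    · simp only [ψ, Sum.elim_inr, hl, and_false, if_false]
      simp
  | g3 e => simp [ψ]
  | hub g g' hb => exact hb

theorem TT_le_iff [Nonempty A] (e0 : Edge S) (x y : K) : TT R S x ≤ TT R S y ↔ x ≤ y := by
  refine ⟨fun h => ?_, TT_mono R S⟩
  obtain ⟨r, hr, hr'⟩ := retr_exists R S e0
  refine S.refl _ _ ((R.le_iff _ _).1 (fun s t hst => ?_)) (fun g g' hb => ?_)
  · have h1 := hr y _ _ (h (io_pres R S e0 x s t hst))
    rwa [hr', hr'] at h1
  · exact hub_inv R S y (h (TT.of R S (Gen.hub g g' hb)))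

/-- a cell whose label is below the level is contracted -/
theorem cell_conn (Θ : Setoid (XX S A)) (y : L)
    (hcopy : ∀ e i w w', (∀ k, R.θ y (w k) (w' k)) → Θ (Sum.inr (e, i, w)) (Sum.inr (e, i, w')))
    (x0 : K) (h0 : TT R S x0 ≤ Θ) (e : Edge S) (he : e.lab ≤ y) :
    Θ (Sum.inl e.src) (Sum.inr (e, 1, cc)) ∧ Θ (Sum.inl e.src) (Sum.inr (e, 2, cc)) ∧
      Θ (Sum.inl e.src) (Sum.inl e.tgt) := by
  have hc : ∀ i, Θ (Sum.inr (e, i, cc)) (Sum.inr (e, i, dd R e.lab)) :=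
    fun i => hcopy e i _ _ fun k => R.mono he (cc_dd R e.lab k)
  have h1 : Θ (Sum.inl e.src) (Sum.inr (e, 1, cc)) :=
    Θ.trans' (h0 (TT.of R S (Gen.g0 e))) (Θ.trans' (hc 0) (h0 (TT.of R S (Gen.g1 e))))
  have h2 : Θ (Sum.inl e.src) (Sum.inr (e, 2, cc)) :=
    Θ.trans' h1 (Θ.trans' (hc 1) (h0 (TT.of R S (Gen.g2 e))))
  exact ⟨h1, h2, Θ.trans' h2 (Θ.trans' (hc 2) (h0 (TT.of R S (Gen.g3 e))))⟩

variable {S} in
def NF (y : L) (n : XX S A) : Prop :=
  (∃ h, n = Sum.inl h) ∨ (∃ e : Edge S, ¬ e.lab ≤ y ∧ n = Sum.inr (e, 1, cc)) ∨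
    ∃ e : Edge S, ¬ e.lab ≤ y ∧ n = Sum.inr (e, 2, cc)

theorem nf_c (x : K) (e : Edge S) (i : Fin 3) :
    ∃ n, NF (S.base x) n ∧ TT R S x (Sum.inr (e, i, cc)) n := by
  have hconn := cell_conn R S (TT R S x) (S.base x)
    (fun e i w w' h => TT.of R S (Gen.copy e i w w' h)) x le_rfl e
  fin_cases i
  · exact ⟨_, Or.inl ⟨_, rfl⟩, (TT R S x).symm' (TT.of R S (Gen.g0 e))⟩
  · by_cases he : e.lab ≤ (S.base x)
    · exact ⟨_, Or.inl ⟨_, rfl⟩, (TT R S x).symm' (hconn he).1⟩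
    · exact ⟨_, Or.inr (Or.inl ⟨e, he, rfl⟩), (TT R S x).refl' _⟩
  · by_cases he : e.lab ≤ (S.base x)
    · exact ⟨_, Or.inl ⟨_, rfl⟩, (TT R S x).symm' (hconn he).2.1⟩
    · exact ⟨_, Or.inr (Or.inr ⟨e, he, rfl⟩), (TT R S x).refl' _⟩

theorem nf_d (x : K) (e : Edge S) (i : Fin 3) :
    ∃ n, NF (S.base x) n ∧ TT R S x (Sum.inr (e, i, dd R e.lab)) n := by
  fin_cases i
  · obtain ⟨n, hn, h⟩ := nf_c R S x e 1
    exact ⟨n, hn, (TT R S x).trans' (TT.of R S (Gen.g1 e)) h⟩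
  · obtain ⟨n, hn, h⟩ := nf_c R S x e 2
    exact ⟨n, hn, (TT R S x).trans' (TT.of R S (Gen.g2 e)) h⟩
  · exact ⟨_, Or.inl ⟨_, rfl⟩, TT.of R S (Gen.g3 e)⟩

section upper

variable (Θ : Setoid (XX S A)) (x : K)
  (HT : ∀ F : XX S A → A, IsTest R S F → ∀ p q, Θ p q → R.θ (S.base x) (F p) (F q))
include HT

theorem same_copy (e : Edge S) (i : Fin 3) (w w' : A × A → A)
    (h : Θ (Sum.inr (e, i, w)) (Sum.inr (e, i, w'))) :
    TT R S x (Sum.inr (e, i, w)) (Sum.inr (e, i, w')) := by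
  obtain ⟨j, hj⟩ : ∃ j : Fin 3, i ≠ j := by
    fin_cases i
    exacts [⟨1, by decide⟩, ⟨0, by decide⟩, ⟨0, by decide⟩]
  obtain ⟨β, hβ⟩ := fold_exists R S e i j hj
  refine TT.of R S (Gen.copy e i w w' fun k => ?_)
  obtain ⟨F, hF, h1, _⟩ := hβ k
  have h2 := HT F hF _ _ h
  rwa [h1, h1] at h2

theorem anchor (e : Edge S) (i : Fin 3) (w : A × A → A) (q : XX S A)
    (h : Θ (Sum.inr (e, i, w)) q) (hq : ∀ w', q ≠ Sum.inr (e, i, w')) :
    ∃ n, NF (S.base x) n ∧ TT R S x (Sum.inr (e, i, w)) n := by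
  obtain ⟨j, hj, hqj⟩ : ∃ j : Fin 3, i ≠ j ∧ ∀ w', q ≠ Sum.inr (e, j, w') := by
    rcases q with h' | ⟨e', m, w'⟩
    · obtain ⟨j, hj⟩ : ∃ j : Fin 3, i ≠ j := by
        fin_cases i
        exacts [⟨1, by decide⟩, ⟨0, by decide⟩, ⟨0, by decide⟩]
      exact ⟨j, hj, fun _ => Sum.inl_ne_inr⟩
    · obtain ⟨j, hj, hj'⟩ : ∃ j : Fin 3, i ≠ j ∧ m ≠ j :=
        (by decide : ∀ i m : Fin 3, ∃ j : Fin 3, i ≠ j ∧ m ≠ j) i m
      refine ⟨j, hj, fun w'' hw => hj' ?_⟩
      simp only [Sum.inr.injEq, Prod.mk.injEq] at hw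
      exact hw.2.1
  obtain ⟨β, hβ⟩ := fold_exists R S e i j hj
  have key : ∀ k, R.θ (S.base x) (w k) (if β q then dd R e.lab k else cc k) := by
    intro k
    obtain ⟨F, hF, h1, h2⟩ := hβ k
    have h3 := HT F hF _ _ h
    rwa [h1, h2 q hq hqj] at h3
  by_cases hb : β q
  · obtain ⟨n, hn, h1⟩ := nf_d R S x e i
    refine ⟨n, hn, (TT R S x).trans' (TT.of R S (Gen.copy e i _ _ fun k => ?_)) h1⟩
    simpa [hb] using key k
  · obtain ⟨n, hn, h1⟩ := nf_c R S x e i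
    refine ⟨n, hn, (TT R S x).trans' (TT.of R S (Gen.copy e i _ _ fun k => ?_)) h1⟩
    simpa [hb] using key k

theorem sep1 (e : Edge S) (he : ¬ e.lab ≤ (S.base x)) (n : XX S A) (hn : NF (S.base x) n)
    (h : Θ (Sum.inr (e, 1, cc)) n) : n = Sum.inr (e, 1, cc) := by
  by_contra hne
  refine he ((R.le_iff _ _).1 fun s t hst => ?_)
  have hF := fold_pres R S e s ![fun w => w (s, t), fun w => w (t, s), fun _ => s]
    (fun i => by
      fin_cases i
      exacts [NE.proj R _, NE.proj R _, NE.const R _])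
    rfl (by simp [dd_of R hst, cc]) (by simp [dd_of R ((R.θ _).symm' hst)]) rfl
  have h1 := HT _ hF _ _ h
  have h2 : foldMap e s ![fun w => w (s, t), fun w => w (t, s), fun _ => s] n = s := by
    rcases hn with ⟨h', rfl⟩ | ⟨e', _, rfl⟩ | ⟨e', _, rfl⟩
    · rfl
    · have h3 : e' ≠ e := fun h3 => hne (by rw [h3])
      simp [foldMap, h3]
    · simp [foldMap]
  rw [h2] at h1
  exact (R.θ _).symm' (by simpa [foldMap, cc] using h1)

theorem sep2 (e : Edge S) (he : ¬ e.lab ≤ (S.base x)) (n : XX S A) (hn : NF (S.base x) n)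
    (h : Θ (Sum.inr (e, 2, cc)) n) : n = Sum.inr (e, 2, cc) := by
  by_contra hne
  refine he ((R.le_iff _ _).1 fun s t hst => ?_)
  have hF := fold_pres R S e s ![fun _ => s, fun w => w (s, t), fun w => w (t, s)]
    (fun i => by
      fin_cases i
      exacts [NE.const R _, NE.proj R _, NE.proj R _])
    rfl rfl (by simp [dd_of R hst, cc]) (by simp [dd_of R ((R.θ _).symm' hst)])
  have h1 := HT _ hF _ _ h
  have h2 : foldMap e s ![fun _ => s, fun w => w (s, t), fun w => w (t, s)] n = s := by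
    rcases hn with ⟨h', rfl⟩ | ⟨e', _, rfl⟩ | ⟨e', _, rfl⟩
    · rfl
    · simp [foldMap, cc]
    · have h3 : e' ≠ e := fun h3 => hne (by rw [h3])
      simp [foldMap, h3]
  rw [h2] at h1
  exact (R.θ _).symm' (by simpa [foldMap, cc] using h1)

theorem hub_level (h h' : H) (hne : h' ≠ h) (hh : Θ (Sum.inl h) (Sum.inl h')) :
    S.lv h ≤ S.base x := by
  refine (R.le_iff _ _).1 fun s t hst => ?_
  let o : H → A := fun g => if g = h then s else t
  have ho : ∀ (z : K) (g g' : H), S.η z g g' → R.θ (S.base z) (o g) (o g') := by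
    intro z g g' h1
    by_cases hg : g = h <;> by_cases hg' : g' = h
    · simp [o, hg, hg']
    · subst hg
      simpa [o, hg'] using R.mono (S.lv_le z _ _ h1 hg') hst
    · subst hg'
      simpa [o, hg] using (R.θ _).symm' (R.mono (S.lv_le z _ _ ((S.η z).symm' h1) hg) hst)
    · simp [o, hg, hg']
  have hF := test_pres R S o
    (fun e => ![fun w => w (o e.src, o e.tgt), fun _ => o e.tgt, fun _ => o e.tgt])
    (fun e i => by
      fin_cases i
      exacts [NE.proj R _, NE.const R _, NE.const R _])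
    (fun _ => rfl)
    (fun e => dd_of R (S.base_sg e.lab ▸ ho _ _ _ e.h3))
    (fun _ => rfl) (fun _ => rfl) ho
  have h1 := HT _ hF _ _ hh
  simpa [o, hne] using h1

end upper

theorem closed_main [Finite A] [Nonempty A] (e0 : Edge S) (x0 : K)
    (Θ : Setoid (XX S A)) (h0 : TT R S x0 ≤ Θ)
    (hΘ : ∀ f : XX S A → XX S A, (∀ x : K, Pres f (TT R S x) (TT R S x)) → Pres f Θ Θ) :
    ∃ x : K, Θ = TT R S x := by
  obtain ⟨r, hr, hr'⟩ := retr_exists R S e0
  obtain ⟨y, hy⟩ := R.closed (Setoid.comap (io e0) Θ) (fun g hg s t hst => by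
    have h1 := hΘ (fun q => io e0 (g (r q)))
      (fun x p q hpq => io_pres R S e0 x _ _ (hg _ _ _ (hr x p q hpq))) _ _ hst
    simp only [hr'] at h1
    exact h1)
  have hy' : ∀ s t, R.θ y s t ↔ Θ (io e0 s) (io e0 t) := fun s t => by
    rw [← hy]
    exact Iff.rfl
  have HT : ∀ F : XX S A → A, IsTest R S F → ∀ p q, Θ p q → R.θ y (F p) (F q) :=
    fun F hF p q hpq => (hy' _ _).2 (hΘ (fun q => io e0 (F q))
      (fun x p q hpq => io_pres R S e0 x _ _ (hF x p q hpq)) _ _ hpq)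
  have hcopy : ∀ e i w w', (∀ k, R.θ y (w k) (w' k)) →
      Θ (Sum.inr (e, i, w)) (Sum.inr (e, i, w')) := by
    intro e i
    refine chain (R.θ y) Θ (fun w => Sum.inr (e, i, w)) (fun w k a b hab => ?_)
    have h1 := hΘ (fun q => Sum.inr (e, i, Function.update w k (r q)))
      (fun x p q hpq => TT.of R S (Gen.copy e i _ _ fun j => by
        by_cases hj : j = k
        · subst hj
          simpa using hr x p q hpq
        · simp [hj])) _ _ ((hy' a b).1 hab)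
    simpa only [hr'] using h1
  obtain ⟨x, hxy, hxz⟩ := S.closed y (Setoid.comap Sum.inl Θ)
    (fun g g' hg => (cell_conn R S Θ y hcopy x0 h0 ⟨g, g', y, hg⟩ le_rfl).2.2)
    (fun g g' hg hne => S.base_sg y ▸ hub_level R S Θ (S.sg y)
      (by rw [S.base_sg]; exact HT) g g' hne hg)
  subst hxy
  have hxz' : ∀ g g', S.η x g g' ↔ Θ (Sum.inl g) (Sum.inl g') := fun g g' => by
    rw [← hxz]
    exact Iff.rfl
  have hlow : TT R S x ≤ Θ := by
    intro p q hpq
    refine pres_of_gen R S x id Θ (fun p q hg => ?_) p q hpq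
    cases hg with
    | copy e i w w' hw => exact hcopy e i w w' hw
    | g0 e => exact h0 (TT.of R S (Gen.g0 e))
    | g1 e => exact h0 (TT.of R S (Gen.g1 e))
    | g2 e => exact h0 (TT.of R S (Gen.g2 e))
    | g3 e => exact h0 (TT.of R S (Gen.g3 e))
    | hub g g' hb => exact (hxz' g g').1 hb
  have hhub : ∀ h h' : H, Θ (Sum.inl h) (Sum.inl h') → TT R S x (Sum.inl h) (Sum.inl h') :=
    fun h h' hh => TT.of R S (Gen.hub h h' ((hxz' h h').2 hh))
  have hnf : ∀ n n', NF (S.base x) n → NF (S.base x) n' → Θ n n' → TT R S x n n' := by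
    intro n n' hn hn' h
    rcases hn with ⟨g, rfl⟩ | ⟨e, he, rfl⟩ | ⟨e, he, rfl⟩
    · rcases hn' with ⟨g', rfl⟩ | ⟨e, he, rfl⟩ | ⟨e, he, rfl⟩
      · exact hhub g g' h
      · rw [sep1 R S Θ x HT e he _ (Or.inl ⟨g, rfl⟩) (Θ.symm' h)]
      · rw [sep2 R S Θ x HT e he _ (Or.inl ⟨g, rfl⟩) (Θ.symm' h)]
    · rw [sep1 R S Θ x HT e he _ hn' h]
    · rw [sep2 R S Θ x HT e he _ hn' h]
  refine ⟨x, le_antisymm (fun p q hpq => ?_) hlow⟩
  by_cases hs : ∃ e i w w', p = Sum.inr (e, i, w) ∧ q = Sum.inr (e, i, w')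
  · obtain ⟨e, i, w, w', rfl, rfl⟩ := hs
    exact same_copy R S Θ x HT e i w w' hpq
  · obtain ⟨n, hn, h1⟩ : ∃ n, NF (S.base x) n ∧ TT R S x p n := by
      rcases p with g | ⟨e, i, w⟩
      · exact ⟨_, Or.inl ⟨g, rfl⟩, (TT R S x).refl' _⟩
      · exact anchor R S Θ x HT e i w q hpq (fun w' h => hs ⟨e, i, w, w', rfl, h⟩)
    obtain ⟨n', hn', h2⟩ : ∃ n, NF (S.base x) n ∧ TT R S x q n := by
      rcases q with g | ⟨e, i, w⟩
      · exact ⟨_, Or.inl ⟨g, rfl⟩, (TT R S x).refl' _⟩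
      · exact anchor R S Θ x HT e i w p (Θ.symm' hpq) (fun w' h => hs ⟨e, i, w', w, h, rfl⟩)
    have h3 := hnf n n' hn hn' (Θ.trans' (Θ.symm' (hlow h1)) (Θ.trans' hpq (hlow h2)))
    exact (TT R S x).trans' h1 ((TT R S x).trans' h3 ((TT R S x).symm' h2))

theorem sys_rep [Finite H] [Nonempty H] (S : Sys L K H) (hL : Representable L) :
    Representable K := by
  obtain ⟨A, hA, hAn, ⟨R⟩⟩ := rep_of hL
  have hfin : Finite L := R.finite
  obtain ⟨y0, hy0⟩ := R.exists_bot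
  obtain ⟨g0⟩ : Nonempty H := inferInstance
  let e0 : Edge S := ⟨g0, g0, y0, (S.η _).refl' _⟩
  have hne : Nonempty (XX S A) := ⟨Sum.inl g0⟩
  exact of_prerep (fun _ _ => le_antisymm) (TT R S) (TT_le_iff R S e0) (S.sg y0)
    (fun x => (S.adj _ _).2 (hy0 _)) (closed_main R S e0 _)

end Vale.Agent.P183.G
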