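import Mathlib
import Vale.Agent.P183.Main
import Vale.Agent.P183.Main2

namespace Vale.Agent.P183

open Classical

/-- the hub relation for fibres with at most two elements -/
def twoRel {K L : Type} [Lattice K] [Lattice L] (π : LatticeHom K L) (ρ : L → K) (x : K) :
    Setoid (L × Bool) where
  r g g' := g = g' ∨ (g.1 ≤ π x ∧ g'.1 ≤ π x ∧
    ((g.2 = true ∧ ¬ ρ g.1 ≤ x) ↔ (g'.2 = true ∧ ¬ ρ g'.1 ≤ x)))
  iseqv := ⟨fun _ => Or.inl rfl, fun h => h.elim (fun h => Or.inl h.symm)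
    (fun h => Or.inr ⟨h.2.1, h.1, h.2.2.symm⟩), by
      rintro a b c (rfl | h1) (rfl | h2)
      · exact Or.inl rfl
      · exact Or.inr h2
      · exact Or.inr h1
      · exact Or.inr ⟨h1.1, h2.2.1, h1.2.2.trans h2.2.2⟩⟩

theorem two_rep (K L : Type) [Lattice K] [Finite K] [Lattice L] (π : LatticeHom K L)
    (hs : Function.Surjective π)
    (h2 : ∀ x y z, π x = π y → π y = π z → x = y ∨ y = z ∨ x = z)
    (hL : Representable L) : Representable K := by
  obtain ⟨A, hA, hAn, ⟨R⟩⟩ := rep_of hL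
  obtain ⟨y0, -⟩ := R.exists_bot
  have hfin : Finite L := R.finite
  have hne : Nonempty K := ⟨(hs y0).choose⟩
  have hneL : Nonempty L := ⟨y0⟩
  have hft := Fintype.ofFinite K
  let iB : BoundedOrder K := Fintype.toBoundedOrder K
  have hm : ∀ x x', x ≤ x' → π x ≤ π x' := fun x x' h => OrderHomClass.mono π h
  let sg : L → K := fun y => (Finset.univ.filter fun x => y ≤ π x).inf id
  let ρ : L → K := fun y => (Finset.univ.filter fun x => π x ≤ y).sup id
  have hs1 : ∀ y x, y ≤ π x → sg y ≤ x := fun y x h =>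
    Finset.inf_le (f := id) (Finset.mem_filter.2 ⟨Finset.mem_univ _, h⟩)
  have hs2 : ∀ y, y ≤ π (sg y) := by
    intro y
    obtain ⟨x0, rfl⟩ := hs y
    refine Finset.inf_induction (p := fun t => π x0 ≤ π t) (hm _ _ le_top) (fun a ha b hb => ?_)
      (fun b hb => (Finset.mem_filter.1 hb).2)
    rw [map_inf]
    exact le_inf ha hb
  have hr1 : ∀ y x, π x ≤ y → x ≤ ρ y := fun y x h =>
    Finset.le_sup (f := id) (Finset.mem_filter.2 ⟨Finset.mem_univ _, h⟩)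
  have hr2 : ∀ y, π (ρ y) ≤ y := by
    intro y
    obtain ⟨x0, rfl⟩ := hs y
    refine Finset.sup_induction (p := fun t => π t ≤ π x0) (hm _ _ bot_le) (fun a ha b hb => ?_)
      (fun b hb => (Finset.mem_filter.1 hb).2)
    rw [map_sup]
    exact sup_le ha hb
  have hs3 : ∀ y, π (sg y) = y := by
    intro y
    obtain ⟨x0, rfl⟩ := hs y
    exact le_antisymm (hm _ _ (hs1 _ _ le_rfl)) (hs2 _)
  have hr3 : ∀ y, π (ρ y) = y := by
    intro y
    obtain ⟨x0, rfl⟩ := hs y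
    exact le_antisymm (hr2 _) (hm _ _ (hr1 _ _ le_rfl))
  have hrm : ∀ a y, a ≤ y → ρ a ≤ ρ y := fun a y h => hr1 _ _ ((hr2 a).trans h)
  have htwo : ∀ x, x = sg (π x) ∨ x = ρ (π x) := by
    intro x
    rcases h2 (sg (π x)) x (ρ (π x)) (hs3 _) (hr3 _).symm with h | h | h
    · exact Or.inl h.symm
    · exact Or.inr h
    · exact Or.inl (le_antisymm (h ▸ hr1 _ _ le_rfl) (hs1 _ _ le_rfl))
  have hup : ∀ x a, a ≤ π x → ¬ ρ a ≤ x → x ⊔ ρ a = ρ (π x) := by
    intro x a ha hx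
    have h3 : π (x ⊔ ρ a) = π x := by rw [map_sup, hr3, sup_eq_left.2 ha]
    rcases htwo (x ⊔ ρ a) with h | h
    · rw [h3] at h
      exact absurd (le_sup_right.trans (h.le.trans (hs1 _ _ le_rfl))) hx
    · rwa [h3] at h
  have hkey : ∀ x x' (g g' : L × Bool), x ≤ x' → g.1 ≤ π x → g'.1 ≤ π x →
      ((g.2 = true ∧ ¬ ρ g.1 ≤ x) → (g'.2 = true ∧ ¬ ρ g'.1 ≤ x)) →
      (g.2 = true ∧ ¬ ρ g.1 ≤ x') → (g'.2 = true ∧ ¬ ρ g'.1 ≤ x') := by
    intro x x' g g' hx hg hg' h h'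
    obtain ⟨h3, h4⟩ := h ⟨h'.1, fun h5 => h'.2 (h5.trans hx)⟩
    refine ⟨h3, fun h5 => h'.2 ((hrm _ _ hg).trans ?_)⟩
    rw [← hup x _ hg' h4]
    exact sup_le hx h5
  refine G.sys_rep (H := L × Bool) ⟨π, sg, fun y x => ⟨fun h => (hs2 y).trans (hm _ _ h), hs1 y x⟩,
    twoRel π ρ, ?_, Prod.fst, ?_, hs3, ?_, ?_⟩ hL
  · rintro x x' hx g g' (h | h)
    · exact Or.inl h
    · exact Or.inr ⟨h.1.trans (hm _ _ hx), h.2.1.trans (hm _ _ hx),
        hkey x x' g g' hx h.1 h.2.1 h.2.2.1, hkey x x' g' g hx h.2.1 h.1 h.2.2.2⟩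
  · rintro x g g' (h | h) hne
    · exact absurd h.symm hne
    · exact h.1
  · intro x x' hb h
    rcases htwo x with hx | hx
    · rw [hx]
      exact hs1 _ _ hb
    · have h3 : twoRel π ρ x (π x, true) (π x, false) :=
        Or.inr ⟨le_rfl, le_rfl, by simp [← hx]⟩
      rcases h h3 with h4 | h4
      · simp at h4
      · have h5 : ρ (π x) ≤ x' := by simpa using h4.2.2
        rwa [← hx] at h5
  · intro y Θ h1 hlv
    by_cases hc : Θ ≤ twoRel π ρ (sg y)
    · exact ⟨sg y, hs3 y, le_antisymm hc h1⟩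
    · obtain ⟨g, g', hg, hng⟩ : ∃ g g', Θ g g' ∧ ¬ twoRel π ρ (sg y) g g' := by
        by_contra hn
        push Not at hn
        exact hc fun a b hab => hn a b hab
      have hne : g' ≠ g := fun h => hng (Or.inl h.symm)
      have hl : g.1 ≤ y := hlv g g' hg hne
      have hl' : g'.1 ≤ y := hlv g' g (Θ.symm' hg) hne.symm
      have hd : ¬ ((g.2 = true ∧ ¬ ρ g.1 ≤ sg y) ↔ (g'.2 = true ∧ ¬ ρ g'.1 ≤ sg y)) :=
        fun h => hng (Or.inr ⟨(hs3 y).symm ▸ hl, (hs3 y).symm ▸ hl', h⟩)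
      have hall : ∀ u : L × Bool, u.1 ≤ y → Θ u g := by
        intro u hu
        by_cases h3 : (u.2 = true ∧ ¬ ρ u.1 ≤ sg y) ↔ (g.2 = true ∧ ¬ ρ g.1 ≤ sg y)
        · exact h1 (Or.inr ⟨(hs3 y).symm ▸ hu, (hs3 y).symm ▸ hl, h3⟩)
        · exact Θ.trans' (h1 (Or.inr ⟨(hs3 y).symm ▸ hu, (hs3 y).symm ▸ hl', by tauto⟩))
            (Θ.symm' hg)
      refine ⟨ρ y, hr3 y, Setoid.ext fun u u' => ⟨fun h => ?_, ?_⟩⟩
      · by_cases hu : u' = u
        · exact Or.inl hu.symm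
        · have h3 := hlv u u' h hu
          have h4 := hlv u' u (Θ.symm' h) (Ne.symm hu)
          exact Or.inr ⟨(hr3 y).symm ▸ h3, (hr3 y).symm ▸ h4, by simp [hrm _ _ h3, hrm _ _ h4]⟩
      · rintro (h | h)
        · rw [h]
        · exact Θ.trans' (hall u (hr3 y ▸ h.1)) (Θ.symm' (hall u' (hr3 y ▸ h.2.1)))

theorem minimal_two (K : Type) [Lattice K] [Finite K]
    (hmin : ∀ (L : Type) [Lattice L] [Finite L] [Nonempty L], Nat.card L < Nat.card K →
      Representable L) (hK : ¬ Representable K) [Nonempty K] (L : Type) [Lattice L]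
    (π : LatticeHom K L) (hs : Function.Surjective π) (hi : ¬ Function.Injective π) :
    ∃ x y z, π x = π y ∧ π y = π z ∧ x ≠ y ∧ y ≠ z ∧ x ≠ z := by
  by_contra hn
  have hfin : Finite L := Finite.of_surjective π hs
  have hne : Nonempty L := ⟨π (Classical.arbitrary K)⟩
  refine hK (two_rep K L π hs (fun x y z h1 h2 => ?_) (hmin L ?_))
  · by_contra h
    rw [not_or, not_or] at h
    exact hn ⟨x, y, z, h1, h2, h.1, h.2.1, h.2.2⟩
  · refine lt_of_le_of_ne (Nat.card_le_card_of_surjective π hs) fun h => hi ?_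
    exact ((Nat.bijective_iff_surjective_and_card π).2 ⟨hs, h.symm⟩).1

end Vale.Agent.P183
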